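import Vale.Agent.P065.H547.Fam

/-!
# P065: the one-shot strip lemma for a family of separated cells (helper547)

`fam_bound`: the edge sizes of the cells of a family add up to at most `6 #Q + 4`;
`fam_middle`: for disjoint windows, the lines of the cells strictly between two cells touched in the
window add up to at most `3 #Q + 2`.
-/

set_option autoImplicit false

namespace Vale.Agent.P065.H547

open Finset Vale.Agent.P065.UB Vale.Agent.P065.H987 Vale.Agent.P065.H859

section

variable {Q : Finset Pt} {n : ℕ} {E : Fin n → Finset (ℝ × Pt)} {T : Fin n → Finset Pt}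

open Classical in
/-- all the times of the events of the cells -/
noncomputable def tms (E : Fin n → Finset (ℝ × Pt)) : Finset ℝ :=
  univ.biUnion fun i => (E i).image Prod.fst

theorem mem_tms {m : ℝ} : m ∈ tms E ↔ ∃ i v, (m, v) ∈ E i := by
  classical
  unfold tms
  rw [mem_biUnion]
  constructor
  · rintro ⟨i, -, hi⟩
    obtain ⟨e, he, rfl⟩ := mem_image.1 hi
    exact ⟨i, e.2, he⟩
  · rintro ⟨i, v, hi⟩
    exact ⟨i, mem_univ _, mem_image.2 ⟨_, hi, rfl⟩⟩

/-- the events of one time have the same height and lie in one cell -/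
theorem cell_unique {κ : ℕ} (hF : Fam Q E T) (hev : ∀ i, ∀ e ∈ E i, Touch Q κ e.1 e.2)
    {i j : Fin n} {m : ℝ} {v w : Pt} (hv : (m, v) ∈ E i) (hw : (m, w) ∈ E j) :
    ht m v = ht m w ∧ i = j := by
  have h1 : ht m v = ht m w := touch_ht (hev i _ hv) (hev j _ hw)
  refine ⟨h1, ?_⟩
  rcases lt_trichotomy i j with h | h | h
  · have := hF.up i j h v (hF.evT i _ hv) _ hw
    simp only at this
    linarith
  · exact h
  · have := hF.up j i h w (hF.evT j _ hw) _ hv
    simp only at this
    linarith

/-- number of lines in the cells below `i` -/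
noncomputable def NN (T : Fin n → Finset Pt) (i : Fin n) : ℕ := ∑ j ∈ univ.filter (· < i), #(T j)

theorem NN_add_le (T : Fin n → Finset Pt) {i j : Fin n} (h : i < j) :
    NN T i + #(T i) ≤ NN T j := by
  classical
  unfold NN
  have h1 : univ.filter (· < i) ∪ {i} ⊆ univ.filter (· < j) := by
    intro l hl
    rcases mem_union.1 hl with hl | hl
    · exact mem_filter.2 ⟨mem_univ _, (mem_filter.1 hl).2.trans h⟩
    · rw [mem_singleton] at hl
      exact mem_filter.2 ⟨mem_univ _, hl ▸ h⟩
  calc ∑ l ∈ univ.filter (· < i), #(T l) + #(T i)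
      = ∑ l ∈ univ.filter (· < i) ∪ {i}, #(T l) := by
        rw [sum_union, sum_singleton]
        rw [disjoint_singleton_right]
        intro h'
        exact lt_irrefl _ (mem_filter.1 h').2
    _ ≤ _ := sum_le_sum_of_subset h1

theorem NN_disj (T : Fin n → Finset Pt) {i j : Fin n} (h : i ≠ j) :
    Disjoint (Ico (NN T i) (NN T i + #(T i))) (Ico (NN T j) (NN T j + #(T j))) := by
  rw [disjoint_left]
  intro x hx hy
  rw [mem_Ico] at hx hy
  rcases lt_or_gt_of_ne h with h | h
  · have := NN_add_le T h
    omega
  · have := NN_add_le T h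
    omega

theorem card_KK (hF : Fam Q E T) : #(KK T) = ∑ i, #(T i) := by
  classical
  unfold KK
  apply card_biUnion
  intro i _ j _ hij
  rcases lt_or_gt_of_ne hij with h | h
  · exact hF.dis i j h
  · exact (hF.dis j i h).symm

/-- the rank among the lines of the cells, for an event of the cell `i` -/
theorem bl_KK (hF : Fam Q E T) {i : Fin n} {m : ℝ} {v : Pt} (hv : (m, v) ∈ E i) :
    bl (KK T) m (ht m v) = NN T i + H987.rk (T i) m v := by
  classical
  have h1 : bl (KK T) m (ht m v) = ∑ j, bl (T j) m (ht m v) := by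
    unfold bl KK
    rw [filter_biUnion]
    apply card_biUnion
    intro i _ j _ hij
    apply disjoint_filter_filter
    rcases lt_or_gt_of_ne hij with h | h
    · exact hF.dis i j h
    · exact (hF.dis j i h).symm
  have h2 : ∀ j, bl (T j) m (ht m v) = if j < i then #(T j) else if j = i then H987.rk (T i) m v
      else 0 := by
    intro j
    split_ifs with h h'
    · unfold bl
      congr 1
      apply filter_true_of_mem
      intro u hu
      exact hF.up j i h u hu _ hv
    · subst h'
      exact (rk_eq_bl _ _ _).symm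
    · unfold bl
      rw [card_eq_zero, filter_eq_empty_iff]
      intro u hu
      have := hF.dn i j (lt_of_le_of_ne (not_lt.1 h) fun h'' => h' h''.symm) u hu _ hv
      exact not_lt.2 this.le
  rw [h1, sum_congr rfl fun j _ => h2 j, sum_ite, sum_ite_eq']
  · unfold NN
    simp

end

/-- a common enumeration of the events of a family: the list of times, the event and the cell of
every time, and the bound for the variation of the rank and the number of events with a partner
outside the cells -/
theorem fam_enum {Q : Finset Pt} {n : ℕ} {E : Fin n → Finset (ℝ × Pt)}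
    {T : Fin n → Finset Pt} {κ : ℕ} (hF : Fam Q E T)
    (hev : ∀ i, ∀ e ∈ E i, Touch Q κ e.1 e.2) :
    ∃ (l : List ℝ) (ev : ℝ → Pt) (ci : ℝ → Fin n → Prop), l.Pairwise (· < ·) ∧
      (∀ m, m ∈ l ↔ m ∈ tms E) ∧
      (∀ m i, ci m i ↔ (m, ev m) ∈ E i) ∧ (∀ m ∈ l, ∃ i, (m, ev m) ∈ E i) ∧
      (∀ i, ∀ e ∈ E i, ci e.1 i ∧ ht e.1 (ev e.1) = ht e.1 e.2) ∧
      (∀ m i j, ci m i → ci m j → i = j) ∧
      ∃ p : ℝ → Bool, (∀ m ∈ l, ∀ u ∈ Q, (∀ i, u ∉ T i) → ht m u = ht m (ev m) → p m = true) ∧
      vari (fun m => bl (KK T) m (ht m (ev m))) l + l.countP p ≤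
        3 * (#Q - #(KK T)) + 2 := by
  classical
  have hex : ∀ m ∈ tms E, ∃ v, ∃ i, (m, v) ∈ E i := by
    intro m hm
    obtain ⟨i, v, h⟩ := mem_tms.1 hm
    exact ⟨v, i, h⟩
  choose! ev hevm using hex
  obtain ⟨l, hl1, hl2⟩ := exists_sorted (fun m : ℝ => m) _ (tms E) rfl (fun _ _ _ _ h => h)
  have hmem : ∀ m ∈ l, ∃ i, (m, ev m) ∈ E i := fun m hm => hevm m ((hl2 m).1 hm)
  refine ⟨l, ev, fun m i => (m, ev m) ∈ E i, hl1, hl2, fun _ _ => Iff.rfl, hmem, ?_, ?_,
    fun m => decide (∃ u ∈ UU Q E T, ht m u = ht m (ev m)) ||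
      decide (∃ u ∈ DD Q E T, ht m u = ht m (ev m)), ?_, ?_⟩
  · intro i e he
    obtain ⟨j, hj⟩ := hevm e.1 (mem_tms.2 ⟨i, e.2, he⟩)
    obtain ⟨h1, h2⟩ := cell_unique hF hev hj (show (e.1, e.2) ∈ E i from he)
    subst h2
    exact ⟨hj, h1⟩
  · intro m i j hi hj
    exact (cell_unique hF hev hi hj).2
  · intro m _ u hu hT hut
    rw [Bool.or_eq_true, decide_eq_true_iff, decide_eq_true_iff]
    by_cases h : Outer E T u true
    · exact Or.inl ⟨u, mem_UU.2 ⟨hu, hT, h⟩, hut⟩
    · exact Or.inr ⟨u, mem_DD.2 ⟨hu, hT, h⟩, hut⟩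
  · have htot : ∀ m ∈ l, bl Q m (ht m (ev m)) = κ := by
      intro m hm
      obtain ⟨i, hi⟩ := hmem m hm
      rw [← rk_eq_bl]
      exact (hev i _ hi).2
    have hch : l.IsChain (fun a b =>
        ((bl (KK T) a (ht a (ev a)) - bl (KK T) b (ht b (ev b))) +
          (bl (KK T) b (ht b (ev b)) - bl (KK T) a (ht a (ev a)))) +
        ((decide (∃ u ∈ UU Q E T, ht b u = ht b (ev b))).toNat +
          (decide (∃ u ∈ DD Q E T, ht a u = ht a (ev a))).toNat) +
        3 * bl (UU Q E T) b (ht b (ev b)) + 3 * bl (DD Q E T) a (ht a (ev a)) ≤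
        3 * bl (UU Q E T) a (ht a (ev a)) + 3 * bl (DD Q E T) b (ht b (ev b))) := by
      apply List.Pairwise.isChain
      refine List.Pairwise.imp_of_mem ?_ hl1
      intro a b ha hb hab
      obtain ⟨i, hi⟩ := hmem a ha
      obtain ⟨j, hj⟩ := hmem b hb
      refine step hF hab hi hj ((htot a ha).trans (htot b hb).symm) (Bool.toNat_le _)
        (Bool.toNat_le _) ?_ ?_
      · intro h
        by_contra h'
        rw [decide_eq_false h'] at h
        exact lt_irrefl _ h
      · intro h
        by_contra h'
        rw [decide_eq_false h'] at h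
        exact lt_irrefl _ h
    have := tele (rK := fun m => bl (KK T) m (ht m (ev m)))
      (rU := fun m => bl (UU Q E T) m (ht m (ev m))) (rD := fun m => bl (DD Q E T) m (ht m (ev m)))
      (pU := fun m => decide (∃ u ∈ UU Q E T, ht m u = ht m (ev m)))
      (pD := fun m => decide (∃ u ∈ DD Q E T, ht m u = ht m (ev m))) hch
      (M := #(UU Q E T)) (fun a _ => bl_le _ _ _) (M' := #(DD Q E T)) (fun a _ => bl_le _ _ _)
    have hs := (split hF).1
    refine this.trans ?_
    omega

/-- **the one-shot strip lemma**: the edge sizes of the cells of a family of separated cells of one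
level of `Q` add up to at most `6 #Q + 4` -/
theorem fam_bound {Q : Finset Pt} (hQ : Good Q) {n : ℕ} {E : Fin n → Finset (ℝ × Pt)}
    {T : Fin n → Finset Pt} {κ : ℕ} (hF : Fam Q E T) (hev : ∀ i, ∀ e ∈ E i, EvE Q κ e.1 e.2) :
    ∑ i, ne (E i) ≤ 6 * #Q + 4 := by
  classical
  have hev' : ∀ i, ∀ e ∈ E i, Touch Q κ e.1 e.2 := fun i e he => (hev i e he).touch
  obtain ⟨l, ev, ci, hl1, hl2, hci, hmem, hE, huniq, p, hp, hle⟩ := fam_enum hF hev'
  set rK : ℝ → ℕ := fun m => bl (KK T) m (ht m (ev m)) with hrK
  -- one cell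
  have one : ∀ i, ne (E i) ≤ #(T i) + vari (fun m => cl (NN T i) (#(T i)) (rK m)) l +
      2 * l.countP (fun m => decide (ci m i) && p m) := by
    intro i
    set li : List ℝ := l.filter fun m => decide (ci m i) with hli
    have hli1 : li.Pairwise (fun a b => id a < id b) := hl1.sublist List.filter_sublist
    obtain ⟨W, k', w1, w2, -, w4, w5⟩ := sim (Good.mono hQ (hF.subQ i)) id
      (fun m => H987.rk (T i) m (ev m)) 0 li hli1
    have hreal : Real (E i) (T i ∪ W) k' := by
      refine ⟨w4, ?_⟩
      intro e he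
      have heT := hF.evT i e he
      refine ⟨mem_union_left _ heT, ?_⟩
      obtain ⟨h1, h2⟩ := hE i e he
      have hel : e.1 ∈ li := by
        rw [hli, List.mem_filter]
        exact ⟨(hl2 _).2 (mem_tms.2 ⟨i, e.2, he⟩), decide_eq_true h1⟩
      have h5 := w5 e.1 hel e.2 heT
      have h6 : H987.rk (T i) e.1 (ev e.1) = H987.rk (T i) e.1 e.2 := rk_congr h2
      have h7 : H987.rk (T i ∪ W) e.1 e.2 = H987.rk (T i) e.1 e.2 + #{w ∈ W | ht e.1 w < ht e.1 e.2} := by
        unfold H987.rk
        rw [filter_union, card_union_of_disjoint (disjoint_filter_filter w1)]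
      rw [h7, ← h6]
      simp only [id] at h5
      omega
    obtain ⟨Q', k'', hR, hc⟩ := ne_le_of_touch hreal
    -- the lonely times
    have hlone : #(lone (E i) (T i ∪ W)) ≤ l.countP (fun m => decide (ci m i) && p m) := by
      have hsub : lone (E i) (T i ∪ W) ⊆
          (l.filter fun m => decide (ci m i) && p m).toFinset := by
        intro m hm
        obtain ⟨e, he, rfl⟩ := mem_image.1 hm
        obtain ⟨h1, h2⟩ := mem_filter.1 he
        obtain ⟨h3, h4⟩ := hE i e h1
        have hel : e.1 ∈ l := (hl2 _).2 (mem_tms.2 ⟨i, e.2, h1⟩)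
        rw [List.mem_toFinset, List.mem_filter]
        refine ⟨hel, ?_⟩
        rw [Bool.and_eq_true]
        refine ⟨decide_eq_true h3, ?_⟩
        -- the partner
        obtain ⟨f, hf, hs, hv⟩ := hev i e h1
        have hft := touch_ends hf
        rw [hs] at hft
        have hfe := UB.RankAux.mem_Ed.1 hf
        have hne : f.1 ≠ f.2 := fun h => by
          have := hfe.2.2.1
          rw [h] at this
          exact lt_irrefl _ this
        obtain ⟨u, huQ, hue, hut⟩ : ∃ u ∈ Q, u ≠ e.2 ∧ ht e.1 u = ht e.1 e.2 := by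
          rcases hv with hv | hv
          · exact ⟨f.2, hfe.2.1, fun h => hne (hv.trans h.symm),
              touch_ht hft.2 (hev i e h1).touch⟩
          · exact ⟨f.1, hfe.1, fun h => hne (h.trans hv.symm),
              touch_ht hft.1 (hev i e h1).touch⟩
        refine hp e.1 hel u huQ ?_ (hut.trans h4.symm)
        intro j hj
        rcases lt_trichotomy j i with h | h | h
        · exact absurd hut (hF.up j i h u hj e h1).ne
        · subst h
          exact h2 u (mem_union_left _ hj) hue hut
        · exact absurd hut (hF.dn i j h u hj e h1).ne'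
      calc _ ≤ #((l.filter fun m => decide (ci m i) && p m).toFinset) := card_le_card hsub
        _ ≤ (l.filter fun m => decide (ci m i) && p m).length := List.toFinset_card_le _
        _ = _ := by rw [List.countP_eq_length_filter]
    have hW : #W ≤ vari (fun m => cl (NN T i) (#(T i)) (rK m)) l := by
      refine w2.trans ?_
      have : vari (fun m => H987.rk (T i) m (ev m)) li =
          vari (fun m => cl (NN T i) (#(T i)) (rK m)) li := by
        apply vari_congr
        intro m hm
        have h1 := (List.mem_filter.1 hm).2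
        have h2 : (m, ev m) ∈ E i := (hci m i).1 (of_decide_eq_true h1)
        have h3 := bl_KK hF h2
        simp only [hrK]
        rw [h3, cl_add]
        exact card_filter_le _ _
      rw [this]
      exact vari_sublist List.filter_sublist
    calc ne (E i) ≤ #Q' := ne_le hR
      _ ≤ #(T i ∪ W) + 2 * #(lone (E i) (T i ∪ W)) := hc
      _ ≤ #(T i) + #W + 2 * #(lone (E i) (T i ∪ W)) :=
          Nat.add_le_add_right (card_union_le _ _) _
      _ ≤ _ := by omega
  -- the sum over the cells
  have hcount : ∑ i, l.countP (fun m => decide (ci m i) && p m) ≤ l.countP p := by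
    clear hle hp hl1 hl2 hmem one
    induction l with
    | nil => simp
    | cons m l ih =>
      simp only [List.countP_cons]
      rw [sum_add_distrib]
      refine Nat.add_le_add ih ?_
      by_cases hpm : p m = true
      · simp only [hpm, Bool.and_true, if_true]
        by_cases hx : ∃ i, ci m i
        · obtain ⟨i₀, hi₀⟩ := hx
          calc ∑ i, (if decide (ci m i) = true then 1 else 0)
              = ∑ i, (if i = i₀ then 1 else 0) := by
                apply sum_congr rfl
                intro i _
                by_cases hi : i = i₀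
                · subst hi
                  simp [hi₀]
                · have : ¬ ci m i := fun h => hi (huniq m i i₀ h hi₀)
                  simp [hi, this]
            _ ≤ 1 := by simp
        · push Not at hx
          simp [hx]
      · simp [hpm]
  have hvar : ∑ i, vari (fun m => cl (NN T i) (#(T i)) (rK m)) l ≤ vari rK l :=
    sum_vari_cl univ (NN T) (fun i => #(T i)) (fun i _ j _ hij => NN_disj T hij) rK l
  have hK : #(KK T) ≤ #Q := by
    have := (split hF).1
    omega
  calc ∑ i, ne (E i) ≤ ∑ i, (#(T i) + vari (fun m => cl (NN T i) (#(T i)) (rK m)) l +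
      2 * l.countP (fun m => decide (ci m i) && p m)) := sum_le_sum fun i _ => one i
    _ = ∑ i, #(T i) + ∑ i, vari (fun m => cl (NN T i) (#(T i)) (rK m)) l +
        2 * ∑ i, l.countP (fun m => decide (ci m i) && p m) := by
        rw [sum_add_distrib, sum_add_distrib, mul_sum]
    _ ≤ #(KK T) + vari rK l + 2 * l.countP p := by
        rw [card_KK hF]
        omega
    _ ≤ 6 * #Q + 4 := by omega

end Vale.Agent.P065.H547
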