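import Vale.Agent.P065.H547.Vari

/-!
# P065: families of separated cells in one level (helper547)

`Fam Q E T`: cells `i : Fin n`, vertically ordered, with lines `T i` and events `E i`. Every line of
`Q` outside the cells is above the events of the lower cells, below the events of the upper cells
and, with respect to the cells in between, steeper than all their lines or less steep than all
their lines. Trichotomy UP / FLAT / DOWN for two events, and the step inequality.
-/

set_option autoImplicit false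

namespace Vale.Agent.P065.H547

open Finset Vale.Agent.P065.UB Vale.Agent.P065.H987

/-- the line `u` is outside the cells, of type `σ` (`σ = true`: steeper, i.e. abscissa smaller) -/
def Outer {n : ℕ} (E : Fin n → Finset (ℝ × Pt)) (T : Fin n → Finset Pt) (u : Pt) (σ : Bool) :
    Prop :=
  ∃ i₁ i₂ : ℕ, (∀ i : Fin n, i.1 < i₁ → ∀ e ∈ E i, ht e.1 e.2 < ht e.1 u) ∧
    (∀ i : Fin n, i₂ ≤ i.1 → ∀ e ∈ E i, ht e.1 u < ht e.1 e.2) ∧
    (∀ i : Fin n, i₁ ≤ i.1 → i.1 < i₂ → ∀ w ∈ T i, if σ then u.1 < w.1 else w.1 < u.1)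

/-- a family of vertically separated cells -/
structure Fam (Q : Finset Pt) {n : ℕ} (E : Fin n → Finset (ℝ × Pt)) (T : Fin n → Finset Pt) :
    Prop where
  subQ : ∀ i, T i ⊆ Q
  evT : ∀ i, ∀ e ∈ E i, e.2 ∈ T i
  dis : ∀ i j, i < j → Disjoint (T i) (T j)
  up : ∀ i j, i < j → ∀ u ∈ T i, ∀ e ∈ E j, ht e.1 u < ht e.1 e.2
  dn : ∀ i j, i < j → ∀ u ∈ T j, ∀ e ∈ E i, ht e.1 e.2 < ht e.1 u
  out : ∀ u ∈ Q, (∀ i, u ∉ T i) → Outer E T u true ∨ Outer E T u false

section

variable {Q : Finset Pt} {n : ℕ} {E : Fin n → Finset (ℝ × Pt)} {T : Fin n → Finset Pt}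

open Classical in
/-- the lines of the cells -/
noncomputable def KK (T : Fin n → Finset Pt) : Finset Pt := univ.biUnion T

open Classical in
/-- outside, steeper -/
noncomputable def UU (Q : Finset Pt) (E : Fin n → Finset (ℝ × Pt)) (T : Fin n → Finset Pt) :
    Finset Pt := {u ∈ Q | (∀ i, u ∉ T i) ∧ Outer E T u true}

open Classical in
/-- outside, less steep -/
noncomputable def DD (Q : Finset Pt) (E : Fin n → Finset (ℝ × Pt)) (T : Fin n → Finset Pt) :
    Finset Pt := {u ∈ Q | (∀ i, u ∉ T i) ∧ ¬ Outer E T u true}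

theorem mem_KK {u : Pt} : u ∈ KK T ↔ ∃ i, u ∈ T i := by
  classical
  unfold KK
  simp

theorem mem_UU {u : Pt} : u ∈ UU Q E T ↔ u ∈ Q ∧ (∀ i, u ∉ T i) ∧ Outer E T u true := by
  classical
  unfold UU
  exact mem_filter

theorem mem_DD {u : Pt} : u ∈ DD Q E T ↔ u ∈ Q ∧ (∀ i, u ∉ T i) ∧ ¬ Outer E T u true := by
  classical
  unfold DD
  exact mem_filter

/-- the number of points of `X` strictly below the height `h` at time `m` -/
noncomputable def bl (X : Finset Pt) (m h : ℝ) : ℕ := #{u ∈ X | ht m u < h}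

theorem bl_le (X : Finset Pt) (m h : ℝ) : bl X m h ≤ #X := card_filter_le _ _

theorem rk_eq_bl (X : Finset Pt) (m : ℝ) (v : Pt) : rk X m v = bl X m (ht m v) := by
  unfold rk bl
  congr!

theorem split (hF : Fam Q E T) :
    #Q = #(KK T) + #(UU Q E T) + #(DD Q E T) ∧
      ∀ m h, bl Q m h = bl (KK T) m h + bl (UU Q E T) m h + bl (DD Q E T) m h := by
  classical
  have h1 : Q = KK T ∪ (UU Q E T ∪ DD Q E T) := by
    ext u
    rw [mem_union, mem_union, mem_KK, mem_UU, mem_DD]
    constructor
    · intro hu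
      by_cases h : ∃ i, u ∈ T i
      · exact Or.inl h
      · push Not at h
        by_cases h' : Outer E T u true
        · exact Or.inr (Or.inl ⟨hu, h, h'⟩)
        · exact Or.inr (Or.inr ⟨hu, h, h'⟩)
    · rintro (⟨i, hi⟩ | h | h)
      · exact hF.subQ i hi
      · exact h.1
      · exact h.1
  have h2 : Disjoint (UU Q E T) (DD Q E T) := by
    rw [disjoint_left]
    intro u hu hd
    exact (mem_DD.1 hd).2.2 (mem_UU.1 hu).2.2
  have h3 : Disjoint (KK T) (UU Q E T ∪ DD Q E T) := by
    rw [disjoint_left]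
    intro u hu hd
    obtain ⟨i, hi⟩ := mem_KK.1 hu
    rcases mem_union.1 hd with h | h
    · exact (mem_UU.1 h).2.1 i hi
    · exact (mem_DD.1 h).2.1 i hi
  constructor
  · conv_lhs => rw [h1]
    rw [card_union_of_disjoint h3, card_union_of_disjoint h2, add_assoc]
  · intro m h
    unfold bl
    conv_lhs => rw [h1]
    rw [filter_union, card_union_of_disjoint (disjoint_filter_filter h3), filter_union,
      card_union_of_disjoint (disjoint_filter_filter h2), add_assoc]

theorem ht_shift (a b : ℝ) (u : Pt) : ht b u = ht a u - (b - a) * u.1 := by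
  unfold ht; ring

theorem DD_outer (hF : Fam Q E T) {u : Pt} (hu : u ∈ DD Q E T) : Outer E T u false := by
  obtain ⟨h1, h2, h3⟩ := mem_DD.1 hu
  rcases hF.out u h1 h2 with h | h
  · exact absurd h h3
  · exact h

/-- UP: from a lower cell to an upper cell -/
theorem up_cell (hF : Fam Q E T) {i j : Fin n} (hij : i < j) {a b : ℝ} (hab : a < b) {v w : Pt}
    (hv : (a, v) ∈ E i) (hw : (b, w) ∈ E j) :
    (bl (KK T) a (ht a v) < bl (KK T) b (ht b w)) ∧
      bl (DD Q E T) a (ht a v) ≤ bl (DD Q E T) b (ht b w) := by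
  classical
  have hvT := hF.evT i _ hv
  have hvb := hF.up i j hij v hvT _ hw
  simp only at hvT hvb
  constructor
  · apply card_lt_card
    rw [ssubset_iff_of_subset]
    · exact ⟨v, mem_filter.2 ⟨mem_KK.2 ⟨i, hvT⟩, hvb⟩, fun h => lt_irrefl _ (mem_filter.1 h).2⟩
    · intro u hu
      obtain ⟨h1, h2⟩ := mem_filter.1 hu
      refine mem_filter.2 ⟨h1, ?_⟩
      obtain ⟨l, hl⟩ := mem_KK.1 h1
      rcases lt_or_ge l j with h | h
      · exact hF.up l j h u hl _ hw
      · have := hF.dn i l (hij.trans_le h) u hl _ hv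
        simp only at this
        exact absurd h2 (not_lt.2 this.le)
  · apply card_le_card
    intro u hu
    obtain ⟨h1, h2⟩ := mem_filter.1 hu
    refine mem_filter.2 ⟨h1, ?_⟩
    obtain ⟨i₁, i₂, o1, o2, o3⟩ := DD_outer hF h1
    rcases lt_or_ge i.1 i₁ with h | h
    · have := o1 i h _ hv
      simp only at this
      exact absurd h2 (not_lt.2 this.le)
    rcases lt_or_ge j.1 i₂ with h' | h'
    · have h3 := o3 i h ((Fin.lt_def.1 hij).trans h') v hvT
      simp only [Bool.false_eq_true, if_false] at h3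
      have e1 := ht_shift a b u
      have e2 := ht_shift a b v
      nlinarith
    · exact o2 j h' _ hw

/-- DOWN: from an upper cell to a lower cell -/
theorem down_cell (hF : Fam Q E T) {i j : Fin n} (hij : j < i) {a b : ℝ} (hab : a < b) {v w : Pt}
    (hv : (a, v) ∈ E i) (hw : (b, w) ∈ E j) :
    (bl (KK T) b (ht b w) < bl (KK T) a (ht a v)) ∧
      bl (UU Q E T) b (ht b w) ≤ bl (UU Q E T) a (ht a v) := by
  classical
  have hvT := hF.evT i _ hv
  have hwT := hF.evT j _ hw
  have hwa := hF.up j i hij w hwT _ hv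
  have hvb := hF.dn j i hij v hvT _ hw
  simp only at hvT hwT hwa hvb
  constructor
  · apply card_lt_card
    rw [ssubset_iff_of_subset]
    · exact ⟨w, mem_filter.2 ⟨mem_KK.2 ⟨j, hwT⟩, hwa⟩, fun h => lt_irrefl _ (mem_filter.1 h).2⟩
    · intro u hu
      obtain ⟨h1, h2⟩ := mem_filter.1 hu
      refine mem_filter.2 ⟨h1, ?_⟩
      obtain ⟨l, hl⟩ := mem_KK.1 h1
      rcases lt_or_ge l i with h | h
      · exact hF.up l i h u hl _ hv
      · have := hF.dn j l (hij.trans_le h) u hl _ hw
        simp only at this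
        exact absurd h2 (not_lt.2 this.le)
  · apply card_le_card
    intro u hu
    obtain ⟨h1, h2⟩ := mem_filter.1 hu
    refine mem_filter.2 ⟨h1, ?_⟩
    obtain ⟨i₁, i₂, o1, o2, o3⟩ := (mem_UU.1 h1).2.2
    rcases lt_or_ge j.1 i₁ with h | h
    · have := o1 j h _ hw
      simp only at this
      exact absurd h2 (not_lt.2 this.le)
    rcases lt_or_ge i.1 i₂ with h' | h'
    · have h3 := o3 i (h.trans (Fin.lt_def.1 hij).le) h' v hvT
      simp only [if_true] at h3
      by_contra h4
      have h5 : ht a v ≤ ht a u := not_lt.1 h4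
      have e1 := ht_shift a b u
      have e2 := ht_shift a b v
      nlinarith
    · exact o2 i h' _ hv

/-- UP inside a cell: the chord is steeper than all the lines of the cell -/
theorem up_in (hF : Fam Q E T) {i : Fin n} {a b : ℝ} (hab : a < b) {v w : Pt}
    (hv : (a, v) ∈ E i) (hw : (b, w) ∈ E i)
    (hx : ∀ u ∈ T i, ht a v - ht b w < (b - a) * u.1) :
    (bl (KK T) a (ht a v) < bl (KK T) b (ht b w)) ∧
      bl (DD Q E T) a (ht a v) ≤ bl (DD Q E T) b (ht b w) := by
  classical
  have hvT := hF.evT i _ hv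
  simp only at hvT
  have hvb : ht b v < ht b w := by
    have := hx v hvT
    have e := ht_shift a b v
    linarith
  constructor
  · apply card_lt_card
    rw [ssubset_iff_of_subset]
    · exact ⟨v, mem_filter.2 ⟨mem_KK.2 ⟨i, hvT⟩, hvb⟩, fun h => lt_irrefl _ (mem_filter.1 h).2⟩
    · intro u hu
      obtain ⟨h1, h2⟩ := mem_filter.1 hu
      refine mem_filter.2 ⟨h1, ?_⟩
      obtain ⟨l, hl⟩ := mem_KK.1 h1
      rcases lt_trichotomy l i with h | h | h
      · exact hF.up l i h u hl _ hw
      · subst h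
        have := hx u hl
        have e := ht_shift a b u
        linarith
      · have := hF.dn i l h u hl _ hv
        simp only at this
        exact absurd h2 (not_lt.2 this.le)
  · apply card_le_card
    intro u hu
    obtain ⟨h1, h2⟩ := mem_filter.1 hu
    refine mem_filter.2 ⟨h1, ?_⟩
    obtain ⟨i₁, i₂, o1, o2, o3⟩ := DD_outer hF h1
    rcases lt_or_ge i.1 i₁ with h | h
    · have := o1 i h _ hv
      simp only at this
      exact absurd h2 (not_lt.2 this.le)
    rcases lt_or_ge i.1 i₂ with h' | h'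
    · have h3 := o3 i h h' v hvT
      simp only [Bool.false_eq_true, if_false] at h3
      have := hx v hvT
      have e1 := ht_shift a b u
      nlinarith
    · exact o2 i h' _ hw

/-- DOWN inside a cell: the chord is less steep than all the lines of the cell -/
theorem down_in (hF : Fam Q E T) {i : Fin n} {a b : ℝ} (hab : a < b) {v w : Pt}
    (hv : (a, v) ∈ E i) (hw : (b, w) ∈ E i)
    (hx : ∀ u ∈ T i, (b - a) * u.1 < ht a v - ht b w) :
    (bl (KK T) b (ht b w) < bl (KK T) a (ht a v)) ∧
      bl (UU Q E T) b (ht b w) ≤ bl (UU Q E T) a (ht a v) := by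
  classical
  have hvT := hF.evT i _ hv
  have hwT := hF.evT i _ hw
  simp only at hvT hwT
  have hwa : ht a w < ht a v := by
    have := hx w hwT
    have e := ht_shift a b w
    linarith
  constructor
  · apply card_lt_card
    rw [ssubset_iff_of_subset]
    · exact ⟨w, mem_filter.2 ⟨mem_KK.2 ⟨i, hwT⟩, hwa⟩, fun h => lt_irrefl _ (mem_filter.1 h).2⟩
    · intro u hu
      obtain ⟨h1, h2⟩ := mem_filter.1 hu
      refine mem_filter.2 ⟨h1, ?_⟩
      obtain ⟨l, hl⟩ := mem_KK.1 h1
      rcases lt_trichotomy l i with h | h | h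
      · exact hF.up l i h u hl _ hv
      · subst h
        have := hx u hl
        have e := ht_shift a b u
        linarith
      · have := hF.dn i l h u hl _ hw
        simp only at this
        exact absurd h2 (not_lt.2 this.le)
  · apply card_le_card
    intro u hu
    obtain ⟨h1, h2⟩ := mem_filter.1 hu
    refine mem_filter.2 ⟨h1, ?_⟩
    obtain ⟨i₁, i₂, o1, o2, o3⟩ := (mem_UU.1 h1).2.2
    rcases lt_or_ge i.1 i₁ with h | h
    · have := o1 i h _ hw
      simp only at this
      exact absurd h2 (not_lt.2 this.le)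
    rcases lt_or_ge i.1 i₂ with h' | h'
    · have h3 := o3 i h h' w hwT
      simp only [if_true] at h3
      have := hx w hwT
      have e1 := ht_shift a b u
      nlinarith
    · exact o2 i h' _ hv

open Classical in
/-- FLAT: the chord is inside the slope range of the cell -/
theorem flat_in (hF : Fam Q E T) {i : Fin n} {a b : ℝ} (hab : a < b) {v w : Pt}
    (hv : (a, v) ∈ E i) (hw : (b, w) ∈ E i)
    (hx : ∃ u ∈ T i, (b - a) * u.1 ≤ ht a v - ht b w)
    (hy : ∃ u ∈ T i, ht a v - ht b w ≤ (b - a) * u.1) :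
    bl (UU Q E T) b (ht b w) + (if ∃ u ∈ UU Q E T, ht b u = ht b w then 1 else 0) ≤
        bl (UU Q E T) a (ht a v) ∧
      bl (DD Q E T) a (ht a v) + (if ∃ u ∈ DD Q E T, ht a u = ht a v then 1 else 0) ≤
        bl (DD Q E T) b (ht b w) := by
  obtain ⟨x, hxT, hx⟩ := hx
  obtain ⟨y, hyT, hy⟩ := hy
  have hba : 0 < b - a := by linarith
  -- lines of type `U` weakly below at `b` are strictly below at `a`
  have kU : ∀ u ∈ UU Q E T, ht b u ≤ ht b w → ht a u < ht a v := by
    intro u hu hle
    obtain ⟨i₁, i₂, o1, o2, o3⟩ := (mem_UU.1 hu).2.2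
    rcases lt_or_ge i.1 i₁ with h | h
    · have := o1 i h _ hw
      simp only at this
      exact absurd this (not_lt.2 hle)
    rcases lt_or_ge i.1 i₂ with h' | h'
    · have h3 := o3 i h h' x hxT
      simp only [if_true] at h3
      have e1 := ht_shift a b u
      nlinarith
    · exact o2 i h' _ hv
  -- lines of type `D` weakly below at `a` are strictly below at `b`
  have kD : ∀ u ∈ DD Q E T, ht a u ≤ ht a v → ht b u < ht b w := by
    intro u hu hle
    obtain ⟨i₁, i₂, o1, o2, o3⟩ := DD_outer hF hu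
    rcases lt_or_ge i.1 i₁ with h | h
    · have := o1 i h _ hv
      simp only at this
      exact absurd this (not_lt.2 hle)
    rcases lt_or_ge i.1 i₂ with h' | h'
    · have h3 := o3 i h h' y hyT
      simp only [Bool.false_eq_true, if_false] at h3
      have e1 := ht_shift a b u
      nlinarith
    · exact o2 i h' _ hw
  constructor
  · split_ifs with hp
    · obtain ⟨u, hu, hut⟩ := hp
      apply Nat.succ_le_of_lt
      apply card_lt_card
      rw [ssubset_iff_of_subset]
      · refine ⟨u, mem_filter.2 ⟨hu, kU u hu hut.le⟩, fun h => ?_⟩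
        have := (mem_filter.1 h).2
        rw [hut] at this
        exact lt_irrefl _ this
      · intro z hz
        obtain ⟨h1, h2⟩ := mem_filter.1 hz
        exact mem_filter.2 ⟨h1, kU z h1 h2.le⟩
    · apply card_le_card
      intro z hz
      obtain ⟨h1, h2⟩ := mem_filter.1 hz
      exact mem_filter.2 ⟨h1, kU z h1 h2.le⟩
  · split_ifs with hp
    · obtain ⟨u, hu, hut⟩ := hp
      apply Nat.succ_le_of_lt
      apply card_lt_card
      rw [ssubset_iff_of_subset]
      · refine ⟨u, mem_filter.2 ⟨hu, kD u hu hut.le⟩, fun h => ?_⟩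
        have := (mem_filter.1 h).2
        rw [hut] at this
        exact lt_irrefl _ this
      · intro z hz
        obtain ⟨h1, h2⟩ := mem_filter.1 hz
        exact mem_filter.2 ⟨h1, kD z h1 h2.le⟩
    · apply card_le_card
      intro z hz
      obtain ⟨h1, h2⟩ := mem_filter.1 hz
      exact mem_filter.2 ⟨h1, kD z h1 h2.le⟩

open Classical in
/-- **the step inequality** -/
theorem step (hF : Fam Q E T) {i j : Fin n} {a b : ℝ} (hab : a < b) {v w : Pt}
    (hv : (a, v) ∈ E i) (hw : (b, w) ∈ E j) (htot : bl Q a (ht a v) = bl Q b (ht b w)) {x y : ℕ}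
    (hx1 : x ≤ 1) (hy1 : y ≤ 1) (hx : 0 < x → ∃ u ∈ UU Q E T, ht b u = ht b w)
    (hy : 0 < y → ∃ u ∈ DD Q E T, ht a u = ht a v) :
    ((bl (KK T) a (ht a v) - bl (KK T) b (ht b w)) +
        (bl (KK T) b (ht b w) - bl (KK T) a (ht a v))) + (x + y) +
      3 * bl (UU Q E T) b (ht b w) + 3 * bl (DD Q E T) a (ht a v) ≤
    3 * bl (UU Q E T) a (ht a v) + 3 * bl (DD Q E T) b (ht b w) := by
  have hx2 : x ≤ (if ∃ u ∈ UU Q E T, ht b u = ht b w then 1 else 0) := by
    split_ifs with h
    · exact hx1
    · exact not_lt.1 fun h' => h (hx h')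
  have hy2 : y ≤ (if ∃ u ∈ DD Q E T, ht a u = ht a v then 1 else 0) := by
    split_ifs with h
    · exact hy1
    · exact not_lt.1 fun h' => h (hy h')
  clear hx hy
  have h1 := (split hF).2 a (ht a v)
  have h2 := (split hF).2 b (ht b w)
  have h3 : (if ∃ u ∈ UU Q E T, ht b u = ht b w then 1 else 0) ≤ 1 := by split_ifs <;> omega
  have h4 : (if ∃ u ∈ DD Q E T, ht a u = ht a v then 1 else 0) ≤ 1 := by split_ifs <;> omega
  rcases lt_trichotomy i j with h | h | h
  · obtain ⟨h5, h6⟩ := up_cell hF h hab hv hw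
    omega
  · subst h
    by_cases hx : ∀ u ∈ T i, ht a v - ht b w < (b - a) * u.1
    · obtain ⟨h5, h6⟩ := up_in hF hab hv hw hx
      omega
    by_cases hy : ∀ u ∈ T i, (b - a) * u.1 < ht a v - ht b w
    · obtain ⟨h5, h6⟩ := down_in hF hab hv hw hy
      omega
    push Not at hx hy
    obtain ⟨h5, h6⟩ := flat_in hF hab hv hw hx hy
    omega
  · obtain ⟨h5, h6⟩ := down_cell hF h hab hv hw
    omega

end

end Vale.Agent.P065.H547
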