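import Vale.Agent.P065.H859.Final
import Vale.Agent.P065.UB.Final.Lower

/-!
# P065: the form of the final hand-in from `¬ 1 < beta` (helper547)
-/

set_option autoImplicit false

namespace Vale.Agent.P065.H547

open Finset Vale.Agent.P065 Vale.Agent.P065.UB Vale.Agent.P065.H859

/-- the official statement (upper bounds with exponent `1 + o(1)` and the lower bounds) from
`¬ 1 < beta` -/
theorem final_form (h : ¬ 1 < beta) :
    (∀ ε : ℝ, 0 < ε → ∃ C : ℝ, ∀ P : Finset (ℝ × ℝ), GenPos P →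
      (halvingNumber P : ℝ) ≤ C * (P.card : ℝ) ^ (1 + ε)) ∧
    (∀ ε : ℝ, 0 < ε → ∃ C : ℝ, ∀ (P : Finset (ℝ × ℝ)) (k : ℕ), GenPos P → 1 ≤ k →
      k + 1 ≤ P.card → (kSetNumber P k : ℝ) ≤ C * P.card * (k : ℝ) ^ ε) ∧
    (∃ (c : ℝ) (N : ℕ), 0 < c ∧ ∀ n : ℕ, N ≤ n → Even n →
      ∃ P : Finset (ℝ × ℝ), P.card = n ∧ GenPos P ∧
        (n : ℝ) ^ (1 + c / Real.log (Real.log n) ^ 4) ≤ halvingNumber P) ∧
    (∃ (c : ℝ) (K : ℕ), 0 < c ∧ ∀ k n : ℕ, K ≤ k → 2 * k ≤ n →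
      ∃ P : Finset (ℝ × ℝ), P.card = n ∧ GenPos P ∧
        (n : ℝ) * (k : ℝ) ^ (c / Real.log (Real.log k) ^ 4) ≤ kSetNumber P k) :=
  ⟨(H859.final_of_beta (not_lt.1 h)).1, (H859.final_of_beta (not_lt.1 h)).2, UB.Final.lower⟩

end Vale.Agent.P065.H547
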