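import Vale.Agent.P065.H547.Bound

/-!
# P065: trees of slope steps and row cuts (helper547)

`FamL R V L`: list form of `Fam`. Closure under slope steps and row cuts. `WT R V L`: `L` is the list
of weighted leaves of a tree of slope steps (binary, weights `θ`, `1 - θ`) and row cuts.
`WT.sum_le`: the weighted sum of any nonnegative function over the leaves is at most its sum over
the cells of one family of separated cells; with `fam_bound`: `∑ q_b ne (E_b) ≤ 6 #Q + 4`.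
-/

set_option autoImplicit false

namespace Vale.Agent.P065.H547

open Finset Vale.Agent.P065.UB Vale.Agent.P065.H987 Vale.Agent.P065.H859

/-- a cell: events and lines -/
abbrev Cell := Finset (ℝ × Pt) × Finset Pt

/-- the line `u` is outside the cells of the list -/
def OutL (L : List Cell) (u : Pt) (σ : Bool) : Prop :=
  ∃ L₁ M L₂ : List Cell, L = L₁ ++ (M ++ L₂) ∧ (∀ c ∈ L₁, ∀ e ∈ c.1, ht e.1 e.2 < ht e.1 u) ∧
    (∀ c ∈ L₂, ∀ e ∈ c.1, ht e.1 u < ht e.1 e.2) ∧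
    (∀ c ∈ M, ∀ w ∈ c.2, if σ then u.1 < w.1 else w.1 < u.1)

/-- vertical separation of two cells -/
def Sep (c c' : Cell) : Prop :=
  Disjoint c.2 c'.2 ∧ (∀ u ∈ c.2, ∀ e ∈ c'.1, ht e.1 u < ht e.1 e.2) ∧
    (∀ u ∈ c'.2, ∀ e ∈ c.1, ht e.1 e.2 < ht e.1 u)

/-- list form of `Fam` -/
structure FamL (R : Finset Pt) (V : Finset (ℝ × Pt)) (L : List Cell) : Prop where
  subR : ∀ c ∈ L, c.2 ⊆ R
  subV : ∀ c ∈ L, c.1 ⊆ V
  evT : ∀ c ∈ L, ∀ e ∈ c.1, e.2 ∈ c.2
  sep : L.Pairwise Sep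
  out : ∀ u ∈ R, (∀ c ∈ L, u ∉ c.2) → OutL L u true ∨ OutL L u false

theorem FamL.single {R : Finset Pt} {V : Finset (ℝ × Pt)} (h : ∀ e ∈ V, e.2 ∈ R) :
    FamL R V [(V, R)] := by
  refine ⟨?_, ?_, ?_, List.pairwise_singleton _ _, ?_⟩
  · intro c hc
    rw [List.mem_singleton] at hc
    subst hc
    exact Subset.rfl
  · intro c hc
    rw [List.mem_singleton] at hc
    subst hc
    exact Subset.rfl
  · intro c hc
    rw [List.mem_singleton] at hc
    subst hc
    exact h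
  · intro u hu h
    exact absurd hu (h _ (List.mem_singleton.2 rfl))

theorem FamL.nil (R : Finset Pt) (V : Finset (ℝ × Pt)) : FamL R V [] := by
  refine ⟨by simp, by simp, by simp, List.Pairwise.nil, ?_⟩
  intro u _ _
  exact Or.inl ⟨[], [], [], rfl, by simp, by simp, by simp⟩

/-- slope step: the lines dropped are all steeper or all less steep than the lines kept -/
theorem FamL.slope {R R' : Finset Pt} {V V' : Finset (ℝ × Pt)} {L : List Cell} (h : FamL R' V' L)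
    (hR : R' ⊆ R) (hV : V' ⊆ V)
    (hd : ∀ u ∈ R, u ∉ R' → (∀ w ∈ R', u.1 < w.1) ∨ (∀ w ∈ R', w.1 < u.1)) : FamL R V L := by
  refine ⟨fun c hc => (h.subR c hc).trans hR, fun c hc => (h.subV c hc).trans hV, h.evT, h.sep, ?_⟩
  intro u hu hL
  by_cases hu' : u ∈ R'
  · exact h.out u hu' hL
  · rcases hd u hu hu' with h1 | h1
    · exact Or.inl ⟨[], L, [], by simp, by simp, by simp, fun c hc w hw =>
        h1 w (h.subR c hc hw)⟩
    · exact Or.inr ⟨[], L, [], by simp, by simp, by simp, fun c hc w hw =>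
        h1 w (h.subR c hc hw)⟩

/-- row cut -/
theorem FamL.cut {R R₁ R₂ : Finset Pt} {V V₁ V₂ : Finset (ℝ × Pt)} {L₁ L₂ : List Cell}
    (h₁ : FamL R₁ V₁ L₁) (h₂ : FamL R₂ V₂ L₂) (hR₁ : R₁ ⊆ R) (hR₂ : R₂ ⊆ R) (hV₁ : V₁ ⊆ V)
    (hV₂ : V₂ ⊆ V) (hd : Disjoint R₁ R₂) (hlo : ∀ u ∈ R₁, ∀ e ∈ V₂, ht e.1 u < ht e.1 e.2)
    (hup : ∀ u ∈ R₂, ∀ e ∈ V₁, ht e.1 e.2 < ht e.1 u)
    (hmid : ∀ u ∈ R, u ∉ R₁ → u ∉ R₂ → (∀ e ∈ V₁, ht e.1 e.2 < ht e.1 u) ∧
      (∀ e ∈ V₂, ht e.1 u < ht e.1 e.2)) : FamL R V (L₁ ++ L₂) := by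
  refine ⟨?_, ?_, ?_, ?_, ?_⟩
  · intro c hc
    rcases List.mem_append.1 hc with hc | hc
    · exact (h₁.subR c hc).trans hR₁
    · exact (h₂.subR c hc).trans hR₂
  · intro c hc
    rcases List.mem_append.1 hc with hc | hc
    · exact (h₁.subV c hc).trans hV₁
    · exact (h₂.subV c hc).trans hV₂
  · intro c hc
    rcases List.mem_append.1 hc with hc | hc
    · exact h₁.evT c hc
    · exact h₂.evT c hc
  · rw [List.pairwise_append]
    refine ⟨h₁.sep, h₂.sep, ?_⟩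
    intro c hc c' hc'
    refine ⟨hd.mono (h₁.subR c hc) (h₂.subR c' hc'), ?_, ?_⟩
    · intro u hu e he
      exact hlo u (h₁.subR c hc hu) e (h₂.subV c' hc' he)
    · intro u hu e he
      exact hup u (h₂.subR c' hc' hu) e (h₁.subV c hc he)
  · intro u hu hL
    by_cases hu₁ : u ∈ R₁
    · have key : ∀ σ, OutL L₁ u σ → OutL (L₁ ++ L₂) u σ := by
        rintro σ ⟨A, M, B, hL', h3, h4, h5⟩
        refine ⟨A, M, B ++ L₂, by rw [hL']; simp, h3, ?_, h5⟩
        intro c hc e he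
        rcases List.mem_append.1 hc with hc | hc
        · exact h4 c hc e he
        · exact hlo u hu₁ e (h₂.subV c hc he)
      rcases h₁.out u hu₁ fun c hc => hL c (List.mem_append_left _ hc) with h | h
      · exact Or.inl (key _ h)
      · exact Or.inr (key _ h)
    by_cases hu₂ : u ∈ R₂
    · have key : ∀ σ, OutL L₂ u σ → OutL (L₁ ++ L₂) u σ := by
        rintro σ ⟨A, M, B, hL', h3, h4, h5⟩
        refine ⟨L₁ ++ A, M, B, by rw [hL']; simp, ?_, h4, h5⟩
        intro c hc e he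
        rcases List.mem_append.1 hc with hc | hc
        · exact hup u hu₂ e (h₁.subV c hc he)
        · exact h3 c hc e he
      rcases h₂.out u hu₂ fun c hc => hL c (List.mem_append_right _ hc) with h | h
      · exact Or.inl (key _ h)
      · exact Or.inr (key _ h)
    obtain ⟨h3, h4⟩ := hmid u hu hu₁ hu₂
    refine Or.inl ⟨L₁, [], L₂, by simp, ?_, ?_, by simp⟩
    · intro c hc e he
      exact h3 e (h₁.subV c hc he)
    · intro c hc e he
      exact h4 e (h₂.subV c hc he)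

/-- from the list form to the indexed form -/
theorem FamL.toFam {R : Finset Pt} {V : Finset (ℝ × Pt)} {L : List Cell} (h : FamL R V L) :
    Fam R (fun i : Fin L.length => (L.get i).1) (fun i : Fin L.length => (L.get i).2) := by
  have hsep : ∀ i j : Fin L.length, i < j → Sep (L.get i) (L.get j) :=
    fun i j hij => List.pairwise_iff_get.1 h.sep i j hij
  refine ⟨fun i => h.subR _ (List.get_mem _ _), fun i => h.evT _ (List.get_mem _ _),
    fun i j hij => (hsep i j hij).1, fun i j hij => (hsep i j hij).2.1,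
    fun i j hij => (hsep i j hij).2.2, ?_⟩
  intro u hu hL
  have hL' : ∀ c ∈ L, u ∉ c.2 := by
    intro c hc
    obtain ⟨i, hi⟩ := List.mem_iff_get.1 hc
    rw [← hi]
    exact hL i
  have key : ∀ σ, OutL L u σ → Outer (fun i : Fin L.length => (L.get i).1)
      (fun i : Fin L.length => (L.get i).2) u σ := by
    rintro σ ⟨A, M, B, hL', h3, h4, h5⟩
    refine ⟨A.length, A.length + M.length, ?_, ?_, ?_⟩
    · intro i hi
      apply h3
      rw [List.get_eq_getElem]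
      have : L[i.1] = A[i.1] := by
        simp only [hL']
        rw [List.getElem_append_left hi]
      rw [this]
      exact List.getElem_mem _
    · intro i hi
      apply h4
      rw [List.get_eq_getElem]
      have hlt : i.1 < (A ++ (M ++ B)).length := by rw [← hL']; exact i.2
      have hlt' : i.1 - A.length - M.length < B.length := by
        simp only [List.length_append] at hlt
        omega
      have : L[i.1] = B[i.1 - A.length - M.length] := by
        simp only [hL']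
        rw [List.getElem_append_right (by omega), List.getElem_append_right (by omega)]
      rw [this]
      exact List.getElem_mem _
    · intro i hi hi'
      apply h5
      rw [List.get_eq_getElem]
      have hlt' : i.1 - A.length < M.length := by omega
      have : L[i.1] = M[i.1 - A.length] := by
        simp only [hL']
        rw [List.getElem_append_right (by omega), List.getElem_append_left hlt']
      rw [this]
      exact List.getElem_mem _
  rcases h.out u hu hL' with h' | h'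
  · exact Or.inl (key _ h')
  · exact Or.inr (key _ h')

/-- **one-shot strip lemma**, list form -/
theorem FamL.bound {Q : Finset Pt} (hQ : Good Q) {V : Finset (ℝ × Pt)} {κ : ℕ}
    (hV : ∀ e ∈ V, EvE Q κ e.1 e.2) {L : List Cell} (h : FamL Q V L) :
    (L.map fun c => ne c.1).sum ≤ 6 * #Q + 4 := by
  have := fam_bound hQ h.toFam (κ := κ) fun i e he => hV e (h.subV _ (List.get_mem _ _) he)
  refine le_trans (le_of_eq ?_) this
  rw [← List.sum_ofFn]
  congr 1
  apply List.ext_getElem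
  · simp
  · intro i h1 h2
    simp

/-- a weighted cell -/
abbrev WCell := ℝ × Cell

/-- `L` is the list of weighted leaves of a tree of slope steps and row cuts below `(R, V)` -/
inductive WT : Finset Pt → Finset (ℝ × Pt) → List WCell → Prop
  | leaf {R : Finset Pt} {V : Finset (ℝ × Pt)} (h : ∀ e ∈ V, e.2 ∈ R) : WT R V [(1, (V, R))]
  | slope {R R₁ R₂ : Finset Pt} {V V₁ V₂ : Finset (ℝ × Pt)} {L₁ L₂ : List WCell} {θ₁ θ₂ : ℝ}
      (h₁ : WT R₁ V₁ L₁) (h₂ : WT R₂ V₂ L₂) (hθ₁ : 0 ≤ θ₁) (hθ₂ : 0 ≤ θ₂) (hθ : θ₁ + θ₂ ≤ 1)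
      (hR₁ : R₁ ⊆ R) (hR₂ : R₂ ⊆ R) (hV₁ : V₁ ⊆ V) (hV₂ : V₂ ⊆ V)
      (hd₁ : ∀ u ∈ R, u ∉ R₁ → (∀ w ∈ R₁, u.1 < w.1) ∨ (∀ w ∈ R₁, w.1 < u.1))
      (hd₂ : ∀ u ∈ R, u ∉ R₂ → (∀ w ∈ R₂, u.1 < w.1) ∨ (∀ w ∈ R₂, w.1 < u.1)) :
      WT R V ((L₁.map fun c => (θ₁ * c.1, c.2)) ++ (L₂.map fun c => (θ₂ * c.1, c.2)))
  | cut {R R₁ R₂ : Finset Pt} {V V₁ V₂ : Finset (ℝ × Pt)} {L₁ L₂ : List WCell}
      (h₁ : WT R₁ V₁ L₁) (h₂ : WT R₂ V₂ L₂) (hR₁ : R₁ ⊆ R) (hR₂ : R₂ ⊆ R) (hV₁ : V₁ ⊆ V)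
      (hV₂ : V₂ ⊆ V) (hd : Disjoint R₁ R₂) (hlo : ∀ u ∈ R₁, ∀ e ∈ V₂, ht e.1 u < ht e.1 e.2)
      (hup : ∀ u ∈ R₂, ∀ e ∈ V₁, ht e.1 e.2 < ht e.1 u)
      (hmid : ∀ u ∈ R, u ∉ R₁ → u ∉ R₂ → (∀ e ∈ V₁, ht e.1 e.2 < ht e.1 u) ∧
        (∀ e ∈ V₂, ht e.1 u < ht e.1 e.2)) : WT R V (L₁ ++ L₂)

theorem WT.nonneg {R : Finset Pt} {V : Finset (ℝ × Pt)} {L : List WCell} (h : WT R V L) :
    ∀ c ∈ L, 0 ≤ c.1 := by
  induction h with
  | leaf h =>
    intro c hc
    rw [List.mem_singleton] at hc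
    subst hc
    exact zero_le_one
  | slope h₁ h₂ hθ₁ hθ₂ hθ hR₁ hR₂ hV₁ hV₂ hd₁ hd₂ ih₁ ih₂ =>
    intro c hc
    rcases List.mem_append.1 hc with hc | hc
    · obtain ⟨d, hd, rfl⟩ := List.mem_map.1 hc
      exact mul_nonneg hθ₁ (ih₁ d hd)
    · obtain ⟨d, hd, rfl⟩ := List.mem_map.1 hc
      exact mul_nonneg hθ₂ (ih₂ d hd)
  | cut h₁ h₂ hR₁ hR₂ hV₁ hV₂ hd hlo hup hmid ih₁ ih₂ =>
    intro c hc
    rcases List.mem_append.1 hc with hc | hc
    · exact ih₁ c hc
    · exact ih₂ c hc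

/-- **derandomisation**: a weighted sum over the leaves is at most the sum over one family -/
theorem WT.sum_le {R : Finset Pt} {V : Finset (ℝ × Pt)} {L : List WCell} (h : WT R V L)
    (g : Cell → ℝ) (hg : ∀ c, 0 ≤ g c) : ∃ L' : List Cell, FamL R V L' ∧
      (L.map fun c => c.1 * g c.2).sum ≤ (L'.map g).sum := by
  induction h with
  | leaf h => exact ⟨_, FamL.single h, by simp⟩
  | @slope R R₁ R₂ V V₁ V₂ L₁ L₂ θ₁ θ₂ h₁ h₂ hθ₁ hθ₂ hθ hR₁ hR₂ hV₁ hV₂ hd₁ hd₂ ih₁ ih₂ =>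
    obtain ⟨A, hA, hA'⟩ := ih₁
    obtain ⟨B, hB, hB'⟩ := ih₂
    have e1 : ∀ (θ : ℝ) (l : List WCell), ((l.map fun c => (θ * c.1, c.2)).map
        fun c : WCell => c.1 * g c.2).sum = θ * (l.map fun c => c.1 * g c.2).sum := by
      intro θ l
      rw [List.map_map, ← List.sum_map_mul_left]
      congr 1
      apply List.map_congr_left
      intro c _
      simp only [Function.comp]
      ring
    have hA0 : 0 ≤ (A.map g).sum := List.sum_nonneg fun x hx => by
      obtain ⟨c, -, rfl⟩ := List.mem_map.1 hx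
      exact hg c
    have hB0 : 0 ≤ (B.map g).sum := List.sum_nonneg fun x hx => by
      obtain ⟨c, -, rfl⟩ := List.mem_map.1 hx
      exact hg c
    rw [List.map_append, List.sum_append, e1, e1]
    rcases le_total (A.map g).sum (B.map g).sum with hle | hle
    · refine ⟨B, hB.slope hR₂ hV₂ hd₂, ?_⟩
      nlinarith [mul_le_mul_of_nonneg_left hA' hθ₁, mul_le_mul_of_nonneg_left hB' hθ₂,
        mul_le_mul_of_nonneg_left hle hθ₁]
    · refine ⟨A, hA.slope hR₁ hV₁ hd₁, ?_⟩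
      nlinarith [mul_le_mul_of_nonneg_left hA' hθ₁, mul_le_mul_of_nonneg_left hB' hθ₂,
        mul_le_mul_of_nonneg_left hle hθ₂]
  | cut h₁ h₂ hR₁ hR₂ hV₁ hV₂ hd hlo hup hmid ih₁ ih₂ =>
    obtain ⟨A, hA, hA'⟩ := ih₁
    obtain ⟨B, hB, hB'⟩ := ih₂
    refine ⟨A ++ B, hA.cut hB hR₁ hR₂ hV₁ hV₂ hd hlo hup hmid, ?_⟩
    rw [List.map_append, List.sum_append, List.map_append, List.sum_append]
    exact add_le_add hA' hB'

/-- **Kraft form of the one-shot strip lemma** -/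
theorem WT.kraft {Q : Finset Pt} (hQ : Good Q) {V : Finset (ℝ × Pt)} {κ : ℕ}
    (hV : ∀ e ∈ V, EvE Q κ e.1 e.2) {L : List WCell} (h : WT Q V L) :
    (L.map fun c => c.1 * (ne c.2.1 : ℝ)).sum ≤ 6 * #Q + 4 := by
  obtain ⟨L', h1, h2⟩ := h.sum_le (fun c => (ne c.1 : ℝ)) fun c => Nat.cast_nonneg _
  refine h2.trans ?_
  have h3 := h1.bound hQ hV
  have h4 : ((L'.map fun c => ne c.1).sum : ℝ) ≤ ((6 * #Q + 4 : ℕ) : ℝ) := by exact_mod_cast h3
  push_cast at h4
  refine le_trans (le_of_eq ?_) h4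
  rw [List.map_map]
  rfl

end Vale.Agent.P065.H547
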