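import Vale.Agent.P065.H859.ESize

/-!
# P065: variation along a list (helper547)

Numeric part of the one-shot strip lemma: `vari` and sublists, clamps to disjoint intervals, and the
telescoping inequality for the trichotomy UP / FLAT / DOWN.
-/

set_option autoImplicit false

namespace Vale.Agent.P065.H547

open Finset Vale.Agent.P065.UB Vale.Agent.P065.H987

variable {α : Type*}

theorem vari_cons_cons (r : α → ℕ) (a b : α) (l : List α) :
    vari r (a :: b :: l) = ((r a - r b) + (r b - r a)) + vari r (b :: l) := rfl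

theorem vari_congr {r r' : α → ℕ} : ∀ {l : List α}, (∀ a ∈ l, r a = r' a) → vari r l = vari r' l
  | [], _ => rfl
  | [_], _ => rfl
  | a :: b :: l, h => by
    rw [vari_cons_cons, vari_cons_cons, h a (by simp), h b (by simp),
      vari_congr (l := b :: l) fun x hx => h x (List.mem_cons_of_mem _ hx)]

/-- inserting an element does not decrease the variation -/
theorem vari_le_cons (r : α → ℕ) (a : α) (l : List α) : vari r l ≤ vari r (a :: l) := by
  cases l with
  | nil => exact le_rfl
  | cons b l => rw [vari_cons_cons]; omega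

theorem vari_skip (r : α → ℕ) (a b : α) (l : List α) :
    vari r (a :: l) ≤ vari r (a :: b :: l) := by
  cases l with
  | nil => exact Nat.zero_le _
  | cons c l => rw [vari_cons_cons, vari_cons_cons, vari_cons_cons]; omega

theorem vari_cons_le_of {r : α → ℕ} {a : α} {l l' : List α} (h : l.Sublist l') :
    vari r l ≤ vari r l' ∧ vari r (a :: l) ≤ vari r (a :: l') := by
  induction h generalizing a with
  | slnil => exact ⟨le_rfl, le_rfl⟩
  | cons b h ih =>
    refine ⟨(ih (a := b)).1.trans (vari_le_cons r b _), ?_⟩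
    exact (ih (a := a)).2.trans (vari_skip r a b _)
  | cons_cons b h ih =>
    refine ⟨(ih (a := b)).2, ?_⟩
    rw [vari_cons_cons, vari_cons_cons]
    exact Nat.add_le_add_left (ih (a := b)).2 _

theorem vari_sublist {r : α → ℕ} {l l' : List α} (h : l.Sublist l') : vari r l ≤ vari r l' := by
  cases l with
  | nil => exact Nat.zero_le _
  | cons a l => exact (vari_cons_le_of (a := a) h).1

/-- the clamp of `x` to the interval `[N, N + t)`, minus `N` -/
def cl (N t x : ℕ) : ℕ := #{i ∈ Ico N (N + t) | i < x}

theorem cl_add {N t r : ℕ} (h : r ≤ t) : cl N t (N + r) = r := by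
  unfold cl
  have : {i ∈ Ico N (N + t) | i < N + r} = Ico N (N + r) := by
    ext i
    simp only [mem_filter, mem_Ico]
    omega
  rw [this, Nat.card_Ico]
  omega

theorem cl_diff {N t x y : ℕ} (h : x ≤ y) :
    (cl N t x - cl N t y) + (cl N t y - cl N t x) = #{i ∈ Ico N (N + t) | x ≤ i ∧ i < y} := by
  unfold cl
  have h1 : #{i ∈ Ico N (N + t) | i < y} =
      #{i ∈ Ico N (N + t) | i < x} + #{i ∈ Ico N (N + t) | x ≤ i ∧ i < y} := by
    rw [← card_union_of_disjoint]
    · congr 1
      ext i
      simp only [mem_filter, mem_union, mem_Ico]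
      omega
    · rw [disjoint_left]
      intro i h1 h2
      have := (mem_filter.1 h1).2
      have := (mem_filter.1 h2).2
      omega
  omega

theorem sum_cl_diff {ι : Type*} (s : Finset ι) (N t : ι → ℕ)
    (hd : ∀ i ∈ s, ∀ j ∈ s, i ≠ j → Disjoint (Ico (N i) (N i + t i)) (Ico (N j) (N j + t j)))
    (x y : ℕ) :
    ∑ i ∈ s, ((cl (N i) (t i) x - cl (N i) (t i) y) + (cl (N i) (t i) y - cl (N i) (t i) x)) ≤
      (x - y) + (y - x) := by
  classical
  have key : ∀ x y : ℕ, x ≤ y →
      ∑ i ∈ s, ((cl (N i) (t i) x - cl (N i) (t i) y) + (cl (N i) (t i) y - cl (N i) (t i) x)) ≤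
        y - x := by
    intro x y h
    rw [Finset.sum_congr rfl fun i _ => cl_diff (N := N i) (t := t i) h]
    rw [← card_biUnion]
    · calc _ ≤ #(Ico x y) := by
            apply card_le_card
            intro i hi
            obtain ⟨j, _, hj⟩ := mem_biUnion.1 hi
            exact mem_Ico.2 (mem_filter.1 hj).2
        _ = y - x := Nat.card_Ico _ _
    · intro i hi j hj hij
      exact (hd i hi j hj hij).mono (filter_subset _ _) (filter_subset _ _)
  rcases le_total x y with h | h
  · exact (key x y h).trans (by omega)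
  · have := key y x h
    calc _ = ∑ i ∈ s, ((cl (N i) (t i) y - cl (N i) (t i) x) +
        (cl (N i) (t i) x - cl (N i) (t i) y)) := Finset.sum_congr rfl fun i _ => add_comm _ _
      _ ≤ x - y := this
      _ ≤ _ := by omega

/-- the variations of the clamps to disjoint intervals add up to at most the variation -/
theorem sum_vari_cl {ι : Type*} (s : Finset ι) (N t : ι → ℕ)
    (hd : ∀ i ∈ s, ∀ j ∈ s, i ≠ j → Disjoint (Ico (N i) (N i + t i)) (Ico (N j) (N j + t j)))
    (r : α → ℕ) : ∀ l : List α, ∑ i ∈ s, vari (fun a => cl (N i) (t i) (r a)) l ≤ vari r l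
  | [] => by simp [vari]
  | [_] => by simp [vari]
  | a :: b :: l => by
    simp only [vari_cons_cons]
    rw [sum_add_distrib]
    exact Nat.add_le_add (sum_cl_diff s N t hd (r a) (r b)) (sum_vari_cl s N t hd r (b :: l))

/-- **telescoping**: `rK` moves against `rU` and `rD`. `pU b`: the event `b` has a partner of type
`U`, `pD a`: the event `a` has a partner of type `D`. -/
theorem tele {rK rU rD : α → ℕ} {pU pD : α → Bool} :
    ∀ {l : List α}, l.IsChain (fun a b => ((rK a - rK b) + (rK b - rK a)) +
        ((pU b).toNat + (pD a).toNat) + 3 * rU b + 3 * rD a ≤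
        3 * rU a + 3 * rD b) → ∀ {M : ℕ}, (∀ a ∈ l, rU a ≤ M) → ∀ {M' : ℕ}, (∀ a ∈ l, rD a ≤ M') →
      vari rK l + (l.countP fun a => pU a || pD a) ≤ 3 * M + 3 * M' + 2 := by
  -- the exact form
  have main : ∀ (l : List α) (a : α), (a :: l).IsChain (fun a b => ((rK a - rK b) + (rK b - rK a)) +
        ((pU b).toNat + (pD a).toNat) + 3 * rU b + 3 * rD a ≤
        3 * rU a + 3 * rD b) → ∃ z ∈ a :: l,
      vari rK (a :: l) + ((a :: l).countP fun a => pU a || pD a) + 3 * rU z + 3 * rD a ≤
        3 * rU a + 3 * rD z + (pU a).toNat + 1 := by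
    intro l
    induction l with
    | nil =>
      intro a _
      refine ⟨a, by simp, ?_⟩
      rcases h1 : pU a <;> rcases h2 : pD a <;> simp [vari, h1, h2] <;> omega
    | cons b l ih =>
      intro a h
      rw [List.isChain_cons_cons] at h
      obtain ⟨h1, h2⟩ := h
      obtain ⟨z, hz, hle⟩ := ih b h2
      refine ⟨z, List.mem_cons_of_mem _ hz, ?_⟩
      rw [vari_cons_cons, List.countP_cons]
      rcases h3 : pU a <;> rcases h4 : pD a <;> rcases h5 : pU b <;>
        simp [h3, h4, h5] at h1 hle ⊢ <;> omega
  intro l hl M hM M' hM'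
  cases l with
  | nil => simp [vari]
  | cons a l =>
    obtain ⟨z, hz, h⟩ := main l a hl
    have h1 := hM a (by simp)
    have h2 := hM' z hz
    have h3 : (pU a).toNat ≤ 1 := Bool.toNat_le _
    omega

end Vale.Agent.P065.H547
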